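import Vale.Agent.P062.Defs
import Vale.Agent.P062.PartMain

namespace Vale.Agent.Results.P062.AllButCappedDomino

open Vale.Agent.P062

/-- On the initially empty plane board, Maker, moving first and with no handicap, has a strategy
which builds an allowed copy of Snaky against every legal play of Breaker whose first two claims
are not one of four excused ordered pairs.  The four pairs are the images of one pair under
symmetries fixing the origin, where Maker plays his first cell: Breaker first claims a cell
edge-adjacent to the origin, and then caps one given end of the domino that Maker builds
perpendicularly to it. -/
theorem result :
    ∃ σ : Strategy, ∀ b : ℕ → Cell, BreakerLegal σ b →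
      (b 0, b 1) ∉ ({((1, 0), (0, -2)), ((-1, 0), (0, -2)), ((0, 1), (-2, 0)),
        ((0, -1), (-2, 0))} : Finset (Cell × Cell)) →
      ∃ n, MakerWinsAt σ b n :=
  excused_main

end Vale.Agent.Results.P062.AllButCappedDomino
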