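import Vale.Agent.P062.Defs
import Vale.Agent.P062.Main

namespace Vale.Agent.Results.P062.MakerWins

open Vale.Agent.P062

/-- Maker, moving first on the initially empty board with no handicap, has a winning strategy in
the achievement game for Snaky in the plane. -/
theorem result : MakerHasWinningStrategy :=
  hasWinningStrategy_of_win win_empty

end Vale.Agent.Results.P062.MakerWins
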